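import Vale.Agent.P072.Main

/-! # P072: the permanence conjecture for weakly reversible mass-action systems -/

namespace Vale.Agent.Results.P072.Permanence

open Vale.Agent.P072

/-- **Permanence conjecture**: every weakly reversible mass-action system with positive rate
constants is permanent on every positive stoichiometric class. -/
theorem result (d : ℕ) (G : Net d) (hG : WR G) (k : Cpx d × Cpx d → ℝ)
    (hk : ∀ r ∈ G.R, 0 < k r) (c : Fin d → ℝ) (hc : ∀ i, 0 < c i) :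
    (∀ x0 ∈ Cls G c, ∃ x : ℝ → Fin d → ℝ, x 0 = x0 ∧ SolOn G k x (Set.Ici 0) ∧
      (∀ t : ℝ, 0 ≤ t → x t ∈ Cls G c) ∧
      (∀ b : ℝ, 0 ≤ b → ∀ z : ℝ → Fin d → ℝ, z 0 = x0 → SolOn G k z (Set.Icc 0 b) →
        ∀ t ∈ Set.Icc 0 b, z t = x t)) ∧
    ∃ K : Set (Fin d → ℝ), IsCompact K ∧ K ⊆ Cls G c ∧
      ∀ x : ℝ → Fin d → ℝ, SolOn G k x (Set.Ici 0) → x 0 ∈ Cls G c →
        ∃ t0 : ℝ, ∀ t, t0 ≤ t → x t ∈ K := by
  refine ⟨fun x0 hx0 => ?_, ?_⟩
  · obtain ⟨x, hx, hs⟩ := exist_sol G hG k hk x0 hx0.1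
    have hmono : ∀ b : ℝ, SolOn G k x (Set.Icc 0 b) := fun b t ht =>
      (hs t ht.1).mono Set.Icc_subset_Ici_self
    refine ⟨x, hx, hs, fun t ht => ⟨?_, ?_⟩, fun b hb z hz hzs t ht => ?_⟩
    · exact stay_pos G k hk x t (hmono t) (by rw [hx]; exact hx0.1) t ⟨ht, le_rfl⟩
    · exact stay_cls G k c x t (hmono t) (by rw [hx]; exact hx0.2) t ⟨ht, le_rfl⟩
    · exact uniq G k z x b hzs (hmono b) (by rw [hz, hx]) t ht
  · obtain ⟨K, hK, hKc, h⟩ := permanence G hG k hk c hc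
    exact ⟨K, hKc, hK, h⟩

end Vale.Agent.Results.P072.Permanence
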