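import Vale.Agent.P072.Main
import Vale.Agent.P072.M.Main

/-! # P072: the permanence conjecture, with the stronger time-dependent form -/

namespace Vale.Agent.Results.P072.PermanenceTimeDependent

open Vale.Agent.P072

/-- **Permanence conjecture, both forms**: every weakly reversible mass-action system is
permanent on every positive stoichiometric class, for constant positive rates and for measurable
time-dependent rates with values in `[ε, ε⁻¹]`, in the latter case with a compact absorbing set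
that does not depend on the rates. -/
theorem result (d : ℕ) (G : Net d) (hG : WR G) (c : Fin d → ℝ) (hc : ∀ i, 0 < c i) :
    (∀ k : Cpx d × Cpx d → ℝ, (∀ r ∈ G.R, 0 < k r) →
      (∀ x0 ∈ Cls G c, ∃ x : ℝ → Fin d → ℝ, x 0 = x0 ∧ SolOn G k x (Set.Ici 0) ∧
        (∀ t : ℝ, 0 ≤ t → x t ∈ Cls G c) ∧
        (∀ b : ℝ, 0 ≤ b → ∀ z : ℝ → Fin d → ℝ, z 0 = x0 → SolOn G k z (Set.Icc 0 b) →
          ∀ t ∈ Set.Icc 0 b, z t = x t)) ∧
      ∃ K : Set (Fin d → ℝ), IsCompact K ∧ K ⊆ Cls G c ∧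
        ∀ x : ℝ → Fin d → ℝ, SolOn G k x (Set.Ici 0) → x 0 ∈ Cls G c →
          ∃ t0 : ℝ, ∀ t, t0 ≤ t → x t ∈ K) ∧
    (∀ ε : ℝ, 0 < ε → ε ≤ 1 →
      (∀ κ : ℝ → Cpx d × Cpx d → ℝ, Rates G ε κ →
        ∀ x0 ∈ Cls G c, ∃ x : ℝ → Fin d → ℝ, x 0 = x0 ∧ CSol G κ x (Set.Ici 0) ∧
        (∀ t : ℝ, 0 ≤ t → x t ∈ Cls G c) ∧
        (∀ b : ℝ, 0 ≤ b → ∀ z : ℝ → Fin d → ℝ, z 0 = x0 → CSol G κ z (Set.Icc 0 b) →
          ∀ t ∈ Set.Icc 0 b, z t = x t)) ∧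
      ∃ K : Set (Fin d → ℝ), IsCompact K ∧ K ⊆ Cls G c ∧
        ∀ κ : ℝ → Cpx d × Cpx d → ℝ, Rates G ε κ →
        ∀ x : ℝ → Fin d → ℝ, CSol G κ x (Set.Ici 0) → x 0 ∈ Cls G c →
          ∃ t0 : ℝ, ∀ t, t0 ≤ t → x t ∈ K) := by
  refine ⟨fun k hk => ⟨fun x0 hx0 => ?_, ?_⟩, fun ε hε hε1 => ⟨fun κ hκ x0 hx0 => ?_, ?_⟩⟩
  · obtain ⟨x, hx, hs⟩ := exist_sol G hG k hk x0 hx0.1
    have hmono : ∀ b : ℝ, SolOn G k x (Set.Icc 0 b) := fun b t ht =>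
      (hs t ht.1).mono Set.Icc_subset_Ici_self
    refine ⟨x, hx, hs, fun t ht => ⟨?_, ?_⟩, fun b hb z hz hzs t ht => ?_⟩
    · exact stay_pos G k hk x t (hmono t) (by rw [hx]; exact hx0.1) t ⟨ht, le_rfl⟩
    · exact stay_cls G k c x t (hmono t) (by rw [hx]; exact hx0.2) t ⟨ht, le_rfl⟩
    · exact uniq G k z x b hzs (hmono b) (by rw [hz, hx]) t ht
  · obtain ⟨K, hK, hKc, h⟩ := permanence G hG k hk c hc
    exact ⟨K, hKc, hK, h⟩
  · obtain ⟨x, hx, hs⟩ := exist_solM G hG ε hε hε1 κ hκ x0 hx0.1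
    have hmono : ∀ b : ℝ, CSol G κ x (Set.Icc 0 b) := fun b => hs.mono Set.Icc_subset_Ici_self
    refine ⟨x, hx, hs, fun t ht => ⟨?_, ?_⟩, fun b hb z hz hzs t ht => ?_⟩
    · exact stay_posM G ε hε κ hκ x t (hmono t) (by rw [hx]; exact hx0.1) t ⟨ht, le_rfl⟩
    · exact stay_clsM G ε hε κ hκ c x t (hmono t) (by rw [hx]; exact hx0.2) t ⟨ht, le_rfl⟩
    · exact uniqM G ε hε κ hκ z x b hzs (hmono b) (by rw [hz, hx]) t ht
  · obtain ⟨K, hK, hKc, h⟩ := permanenceM G hG ε hε hε1 c hc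
    exact ⟨K, hKc, hK, h⟩

end Vale.Agent.Results.P072.PermanenceTimeDependent
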